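import Vale.Agent.P224.R2.H928.Kb
import Vale.Agent.P224.R2.H807.Net

/-!
The affine bounds of the mean normal for a minimal hypersurface, from the rational checker.
-/

namespace Vale.Agent.P224.R2.H928

open MeasureTheory Set Filter Function Real Finset Matrix Module Vale.Agent.P224
  Vale.Agent.P224.FV Vale.Agent.P224.R2.H582 Vale.Agent.P224.R2.H820 Vale.Agent.P224.R2.H627
  Vale.Agent.P224.R2.H728 Vale.Agent.P224.R2.H470 Vale.Agent.P224.R2.H807
open Vale.Agent.P224.SM2 hiding ker
open scoped Topology RealInnerProductSpace ContDiff Manifold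

set_option linter.unusedSectionVars false

section

variable {V W M : Type*} [NormedAddCommGroup V] [InnerProductSpace ℝ V] [FiniteDimensional ℝ V]
  [NormedAddCommGroup W] [InnerProductSpace ℝ W] [FiniteDimensional ℝ W]
  [TopologicalSpace M] [ChartedSpace V M]
  [MeasurableSpace V] [BorelSpace V] [MeasurableSpace M] [BorelSpace M]
  [MeasurableSpace W] [BorelSpace W] [IsManifold 𝓘(ℝ, V) ∞ M]
  [CompactSpace M] [T2Space M]

/-- **The affine bounds of the mean normal** for a minimal hypersurface. -/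
theorem kb_facts (hW : finrank ℝ W = finrank ℝ V + 2)
    {F : M → W} (hF : SphImm V F) (hmin : ∀ x n, IsUnitNormal V F x n → meanCurv V F x n = 0)
    {m : ℚ} (hm : m = finrank ℝ V) {l : List KbT} (hok : kbAll m l = true)
    {ν : ℝ} {N : M → W} {b : OrthonormalBasis (Fin (finrank ℝ W)) ℝ W}
    {j : Fin (finrank ℝ W) → ℝ} (hd : H176.NearData V F N b j ν) :
    ∀ f ∈ l.map KbT.f, √(fro (De (nrm (volM V F)) (co b F) (co b N))) ≤ f.d →
      (f.ha : ℝ) ≤ hh (nrm (volM V F)) (diagonal j) (co b F) (co b N) →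
      hh (nrm (volM V F)) (diagonal j) (co b F) (co b N) ≤ f.h →
      f.L * √(uu (nrm (volM V F)) (co b N))
        ≤ f.K * hh (nrm (volM V F)) (diagonal j) (co b F) (co b N) + f.R := by
  have hmR : (m : ℝ) = (finrank ℝ V : ℝ) := by
    rw [hm]
    push_cast
    rfl
  have h1 : OneP (nrm (volM V F)) (finrank ℝ V) F N :=
    oneP_mul (oneP_of_min hW hF hmin hd.smooth hd.unit) _
  refine kbAll_sound l hok (by rw [hmR]; exact hd.t0) hd.lsq ?_
    fun k v hv => moments hW hF hmin hd.smooth hd.unit b hd.t0.prob hm le_rfl v hv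
  intro e d H r hr he hf hH
  rw [hmR] at he
  exact H714.rs_ok h1 b hd.t0 hd.lsq hr he hf hH

end

end Vale.Agent.P224.R2.H928
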