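import Vale.Agent.P224.R2.H590.Ptw
import Vale.Agent.P224.R2.H728.Nd
import Vale.Agent.P224.R2.H807.Nct
import Vale.Agent.P224.R2.H714.RsQ

/-!
The mean normal law with the cross term on a box: the radius term is closed by the second moment
of the defect of the radius, and the constants are checked over the rationals.
-/

namespace Vale.Agent.P224.R2.H928

open MeasureTheory Set Filter Function Real Finset Matrix
open Vale.Agent.P224.R2.H728 Vale.Agent.P224.R2.H579 Vale.Agent.P224.R2.H590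
  Vale.Agent.P224.R2.H807

set_option linter.unusedSectionVars false

noncomputable section

variable {ι Ω : Type*} [Fintype ι] [DecidableEq ι] [MeasurableSpace Ω] {μ : Measure Ω}
  {m : ℝ} {x N : ι → Ω → ℝ} {j : ι → ℝ}

/-- the tangent of the square root -/
lemma sqrt_le_tan {a s : ℝ} (ha : 0 ≤ a) (hs : 0 < s) : √a ≤ a / (2 * s) + s / 2 := by
  have h1 := Real.sq_sqrt ha
  have h2 := sq_nonneg (√a - s)
  have e : a / (2 * s) + s / 2 = (a + s ^ 2) / (2 * s) := by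
    field_simp
  rw [e, le_div_iff₀ (by positivity)]
  nlinarith

variable (h : T0Data μ m x N)
include h

/-- the deviation is at most `(1 + |J x|)^2` -/
lemma sz_le_rr (j : ι → ℝ) (ω : Ω) : sz j x N ω ≤ (1 + rr j x ω) ^ 2 := by
  have hN := h.uN ω
  have hr := rr_sq j x ω
  have hr0 := rr_nonneg j x ω
  have e1 : sz j x N ω = ∑ a, N a ω ^ 2 - 2 * ∑ a, N a ω * (j a * x a ω)
      + ∑ a, j a ^ 2 * x a ω ^ 2 := by
    unfold sz
    rw [Finset.mul_sum, ← Finset.sum_sub_distrib, ← Finset.sum_add_distrib]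
    refine Finset.sum_congr rfl fun a _ => ?_
    unfold zd
    ring
  have cs := Finset.sum_mul_sq_le_sq_mul_sq Finset.univ (fun a => N a ω) fun a => j a * x a ω
  have e2 : ∑ a, (j a * x a ω) ^ 2 = rr j x ω ^ 2 := by
    rw [hr]
    exact Finset.sum_congr rfl fun a _ => by ring
  rw [e2, hN, one_mul] at cs
  have k := (abs_le.1 (abs_le_of_sq_le_sq cs hr0)).1
  rw [e1, hN, ← hr]
  nlinarith

/-- the integrand of the radius term -/
lemma rs_pt (j : ι → ℝ) (ω : Ω) :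
    rr j x ω * sz j x N ω ≤ sz j x N ω + |qj j x ω| * √(sz j x N ω) := by
  have hs0 := sz_nonneg j x N ω
  have hr0 := rr_nonneg j x ω
  have hq := qj_eq j x ω
  have hsr := sz_le_rr h j ω
  rw [hq]
  set r := rr j x ω
  set s := sz j x N ω
  have hq0 : 0 ≤ √s := Real.sqrt_nonneg _
  have hs : √s ≤ 1 + r := by
    rw [Real.sqrt_le_left (by linarith)]
    exact hsr
  have e : √s * √s = s := Real.mul_self_sqrt hs0
  rcases le_total r 1 with h1 | h1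
  · have k1 : r * s ≤ 1 * s := mul_le_mul_of_nonneg_right h1 hs0
    have k2 : 0 ≤ |r ^ 2 - 1| * √s := by positivity
    linarith
  · have k1 : (r - 1) * √s ≤ (r - 1) * (1 + r) := mul_le_mul_of_nonneg_left hs (by linarith)
    have k2 := mul_le_mul_of_nonneg_right k1 hq0
    have k3 : (r - 1) * (1 + r) ≤ |r ^ 2 - 1| := (le_of_eq (by ring)).trans (le_abs_self _)
    have k4 := mul_le_mul_of_nonneg_right k3 hq0
    have k5 : (r - 1) * √s * √s = (r - 1) * s := by rw [mul_assoc, e]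
    linarith

lemma bsq (j : ι → ℝ) : BM fun ω => √(sz j x N ω) := by
  obtain ⟨h1, C, h2⟩ := bsz h j
  refine ⟨h1.sqrt, √C, fun ω => ?_⟩
  rw [abs_of_nonneg (Real.sqrt_nonneg _)]
  exact Real.sqrt_le_sqrt ((le_abs_self _).trans (h2 ω))

/-- **The radius term** is controlled by the second moment of `|J x|^2 - 1`. -/
theorem rs_le (j : ι → ℝ) {Q : ℝ} (hQ0 : 0 ≤ Q) (hQ : ∫ ω, qj j x ω ^ 2 ∂μ ≤ Q ^ 2) :
    ∫ ω, rr j x ω * sz j x N ω ∂μ
      ≤ hh μ (diagonal j) x N + Q * √(hh μ (diagonal j) x N) := by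
  have := h.prob
  have b0 := bsz h j
  have b1 := H807.BM.abs (bqj h j)
  have b2 := bsq h j
  have hH0 : 0 ≤ hh μ (diagonal j) x N := h.hh_nonneg _
  have k1 : ∫ ω, rr j x ω * sz j x N ω ∂μ
      ≤ ∫ ω, sz j x N ω + |qj j x ω| * √(sz j x N ω) ∂μ :=
    integral_mono ((brr h j).mul b0).int (b0.add (b1.mul b2)).int fun ω => rs_pt h j ω
  rw [integral_add b0.int (b1.mul b2).int, ← hh_sz h j] at k1
  have k2 := int_cs (μ := μ) b1 b2
  have e1 : ∀ ω, |qj j x ω| ^ 2 = qj j x ω ^ 2 := fun ω => sq_abs _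
  have e2 : ∀ ω, √(sz j x N ω) ^ 2 = sz j x N ω := fun ω => Real.sq_sqrt (sz_nonneg j x N ω)
  simp_rw [e1, e2] at k2
  rw [← hh_sz h j] at k2
  have k3 : (∫ ω, |qj j x ω| * √(sz j x N ω) ∂μ) ^ 2
      ≤ (Q * √(hh μ (diagonal j) x N)) ^ 2 := by
    rw [mul_pow, Real.sq_sqrt hH0]
    exact k2.trans (mul_le_mul_of_nonneg_right hQ hH0)
  have k4 := (abs_le.1 (abs_le_of_sq_le_sq k3 (by positivity))).2
  linarith

/-- **The mean normal law**, closed in the moments of linear functions. -/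
theorem el_kb2 (hm : 3 ≤ m) {L ρ κ t M Q R1 : ℝ} (hL8 : ∀ a, L ≤ L8 m j a) (hρ : 0 < ρ)
    (hρm : ρ ^ 2 ≤ (m + 2) / 2)
    (hκ : 0 ≤ κ) (h1 : 9 / 8 * ρ ^ 2 ≤ κ * ((m + 2) / 2))
    (h2 : 9 / 4 * ρ ^ 2 ≤ κ * ((m + 2) / 2 + ρ ^ 2)) (hj : ∀ a, |j a| ≤ ρ)
    (hQ0 : 0 ≤ Q) (hQ : ∫ ω, qj j x ω ^ 2 ∂μ ≤ Q ^ 2)
    {k : ℕ} (hk : 1 ≤ k) (ht : 0 < t) (hM0 : 0 ≤ M)
    (hM : ∀ v : ι → ℝ, ∑ a, v a ^ 2 = 1 → ∫ ω, (∑ a, v a * x a ω) ^ (2 * k) ∂μ ≤ M)
    (hR : ∫ ω, rr j x ω * sz j x N ω ∂μ ≤ R1) :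
    L * √(uu μ N) ≤ Q * √(hh μ (diagonal j) x N) + (1 / 2 + ρ ^ 2 / (m + 2) + κ) * R1
      + ρ * (t * (1 - 1 / (2 * k))) * hh μ (diagonal j) x N
      + ρ * (t / (2 * k) / t ^ (2 * k) * M * (1 + ρ) ^ 2) := by
  have k1 := el_core h (by linarith) j hL8
    (al := 1 / 2 + ρ ^ 2 / (m + 2) + κ) (by positivity) hρ.le hQ0
    (hP_data h (by linarith) hρ hρm hκ h1 h2 hj)
    (fun v' hv' => lin_short h hρ.le hj hk ht hM0 hM v' hv') hR hQ
  refine k1.trans (le_of_eq ?_)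
  unfold Bl
  ring

/-- the cubic trace of the least squares matrix -/
theorem cubic_le (hm : 0 < m) (hL : LSq μ (Matrix.diagonal j) x N) {δ o T τ : ℝ} (hδ : 0 ≤ δ)
    (hf : fro (De μ x N) ≤ δ ^ 2) (ho : 0 ≤ o) (hw : ∑ a, (j a ^ 2 - 1) ^ 2 ≤ o ^ 2)
    (hT0 : 0 ≤ T) (hT : m + 2 + δ * o ≤ T ^ 2)
    (hτ : 2 * (δ + o) * T ≤ (m + 4) * ((m + 1) * τ)) :
    |∑ b, j b * (j b ^ 2 / ((m + 2) / 2 + j b ^ 2))| ≤ (m + 1) * τ := by
  have hcard : (Fintype.card ι : ℝ) = m + 2 := h.card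
  -- the sum of the squares
  have s1 : ∑ a, j a ^ 2 ≤ T ^ 2 := by
    have k := h.w_tr_le hm.le hL hδ hf ho hw
    rw [Finset.sum_sub_distrib, Finset.sum_const, Finset.card_univ, nsmul_eq_mul, hcard] at k
    linarith
  -- the trace
  have s2 : |∑ a, j a| ≤ δ * T := by
    refine abs_le_of_sq_le_sq ((h.j_tr_sq hm.le hL hδ hf ho hw).trans ?_) (by positivity)
    rw [mul_pow]
    exact mul_le_mul_of_nonneg_left hT (sq_nonneg _)
  -- the mixed sum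
  have s3 : |∑ b, j b * ((j b ^ 2 - 1) * (((m + 2) / 2) / ((m + 2) / 2 + j b ^ 2)))| ≤ T * o := by
    refine abs_le_of_sq_le_sq ?_ (by positivity)
    refine (Finset.sum_mul_sq_le_sq_mul_sq _ _ _).trans ?_
    rw [mul_pow]
    refine mul_le_mul s1 (le_trans (Finset.sum_le_sum fun b _ => ?_) hw)
      (Finset.sum_nonneg fun _ _ => sq_nonneg _) (sq_nonneg _)
    rw [mul_pow]
    have k1 : ((m + 2) / 2) / ((m + 2) / 2 + j b ^ 2) ≤ 1 := by
      rw [div_le_one (by positivity)]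
      have := sq_nonneg (j b)
      linarith
    have k2 : (((m + 2) / 2) / ((m + 2) / 2 + j b ^ 2)) ^ 2 ≤ 1 :=
      pow_le_one₀ (by positivity) k1
    calc (j b ^ 2 - 1) ^ 2 * (((m + 2) / 2) / ((m + 2) / 2 + j b ^ 2)) ^ 2
        ≤ (j b ^ 2 - 1) ^ 2 * 1 := mul_le_mul_of_nonneg_left k2 (sq_nonneg _)
      _ = (j b ^ 2 - 1) ^ 2 := mul_one _
  have e : ∑ b, j b * (j b ^ 2 / ((m + 2) / 2 + j b ^ 2))
      = 2 / (m + 4) * (∑ b, j b
        + ∑ b, j b * ((j b ^ 2 - 1) * (((m + 2) / 2) / ((m + 2) / 2 + j b ^ 2)))) := by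
    rw [← Finset.sum_add_distrib, Finset.mul_sum]
    refine Finset.sum_congr rfl fun b _ => ?_
    have k1 : (m + 2) / 2 + j b ^ 2 ≠ 0 := by positivity
    have k2 : m + 4 ≠ 0 := by positivity
    have k3 : m + 2 + 2 * j b ^ 2 ≠ 0 := by positivity
    field_simp
    ring
  rw [e, abs_mul, abs_of_pos (by positivity : 0 < 2 / (m + 4)), div_mul_eq_mul_div,
    div_le_iff₀ (by positivity)]
  have k4 := abs_add_le (∑ b, j b)
    (∑ b, j b * ((j b ^ 2 - 1) * (((m + 2) / 2) / ((m + 2) / 2 + j b ^ 2))))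
  linarith

end

/-- the data of an affine bound of the mean normal; the radius term is at most `rb hh + r0`, by
`H714.rs_ok` if there is a datum `r`, and by the second moment of the defect if not -/
structure KbT where
  /-- the box and the bound -/
  f : ElT
  /-- bound of the weights -/
  ρ : ℚ
  /-- the correction of the factor of the radius term -/
  κ : ℚ
  /-- bound of the Frobenius norm of the weights -/
  om : ℚ
  /-- bound of the norm of the least squares matrix -/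
  T : ℚ
  /-- bound of the cubic trace -/
  τ : ℚ
  /-- bound of the root of the second moment of the defect of the radius -/
  Q : ℚ
  /-- order of the moments -/
  k : ℕ
  /-- truncation -/
  t : ℚ
  /-- tangent point of the root of `hh` -/
  s : ℚ
  /-- the slope of the radius term -/
  rb : ℚ
  /-- the constant of the radius term -/
  r0 : ℚ
  /-- the datum of the radius term -/
  r : Option H714.RsT

/-- the radius term -/
def radOK (m : ℚ) (c : KbT) : Bool :=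
  match c.r with
  | none => decide (1 + c.Q / (2 * c.s) ≤ c.rb) && decide (c.Q * (c.s / 2) ≤ c.r0)
  | some r => H714.rsOK (1 / (m + 1)) c.f.d c.f.h r && decide (r.R ≤ c.rb) && decide (r.eps ≤ c.r0)

/-- the conditions for an affine bound of the mean normal on a box -/
def kbOK (m : ℚ) (c : KbT) : Bool :=
  let a := 1 / 2 + c.ρ ^ 2 / (m + 2) + c.κ
  let w := (c.f.d ^ 2 + 2 / (m + 1) * c.f.h) / (1 - c.f.d) ^ 2
  decide (3 ≤ m) && decide (0 ≤ c.f.d) && decide (c.f.d < 1) && decide (0 < c.ρ)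
    && decide (1 + (m + 2) * (c.f.d / (1 - c.f.d)) ≤ c.ρ ^ 2)
    && decide (c.ρ ^ 2 ≤ (m + 2) / 2)
    && decide (0 ≤ c.κ) && decide (9 / 8 * c.ρ ^ 2 ≤ c.κ * ((m + 2) / 2))
    && decide (9 / 4 * c.ρ ^ 2 ≤ c.κ * ((m + 2) / 2 + c.ρ ^ 2))
    && decide (0 ≤ c.om) && decide ((m + 2) ^ 2 * w ≤ c.om ^ 2)
    && decide (0 ≤ c.T) && decide (m + 2 + c.f.d * c.om ≤ c.T ^ 2)
    && decide (0 ≤ c.τ) && decide (2 * (c.f.d + c.om) * c.T ≤ (m + 4) * ((m + 1) * c.τ))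
    && decide (c.f.L ≤ 1 - 2 * m / ((m + 1) * (m + 4)) - 4 * c.ρ ^ 2 / ((m + 1) * (m + 4))
      - 2 * EwQ c.f.d c.f.h * (m + 2 + c.ρ ^ 2) / (m + 1) - c.ρ * c.τ)
    && decide (0 ≤ c.Q) && decide (16 / 7 * w + c.f.h ^ 2 ≤ c.Q ^ 2)
    && decide (1 ≤ c.k) && decide (0 < c.t) && decide (0 < c.s)
    && decide (c.Q / (2 * c.s) + a * c.rb + c.ρ * (c.t * (1 - 1 / (2 * c.k))) ≤ c.f.K)
    && decide (c.Q * (c.s / 2) + a * c.r0
      + c.ρ * (c.t / (2 * c.k) / c.t ^ (2 * c.k) * momQ m c.k * (1 + c.ρ) ^ 2) ≤ c.f.R)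
    && radOK m c

section

variable {ι Ω : Type*} [Fintype ι] [DecidableEq ι] [MeasurableSpace Ω] {μ : Measure Ω}
  {x N : ι → Ω → ℝ} {j : ι → ℝ}

lemma momQ_nonneg {m : ℚ} (hm : 0 ≤ m) : ∀ k : ℕ, 0 ≤ momQ m k
  | 0 => by simp [momQ]
  | k + 1 => by
    have h1 := momQ_nonneg hm k
    have e : momQ m (k + 1) = momQ m k * ((2 * k + 1) / (m + 2 * k + 1)) := rfl
    rw [e]
    positivity

/-- the radius term from the datum of `H714`, as a hypothesis on the data -/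
def RadHyp (μ : Measure Ω) (m : ℚ) (x N : ι → Ω → ℝ) (j : ι → ℝ) : Prop :=
  ∀ (e d H : ℚ) (r : H714.RsT), H714.rsOK e d H r = true → 1 ≤ (e : ℝ) * (m + 1) →
    fro (De μ x N) ≤ (d : ℝ) ^ 2 → hh μ (diagonal j) x N ≤ H →
    ∫ ω, rr j x ω * sz j x N ω ∂μ ≤ r.R * hh μ (diagonal j) x N + r.eps

/-- **Soundness** of the affine bound of the mean normal. -/
theorem kb_sound {m : ℚ} {c : KbT} (hok : kbOK m c = true)
    (h : T0Data μ (m : ℝ) x N) (hL : LSq μ (diagonal j) x N) (hrad : RadHyp μ m x N j)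
    (hM : ∀ v : ι → ℝ, ∑ a, v a ^ 2 = 1 →
      ∫ ω, (∑ a, v a * x a ω) ^ (2 * c.k) ∂μ ≤ (momQ m c.k : ℚ))
    (hd : √(fro (De μ x N)) ≤ c.f.d) (hh' : hh μ (diagonal j) x N ≤ c.f.h) :
    c.f.L * √(uu μ N) ≤ c.f.K * hh μ (diagonal j) x N + c.f.R := by
  simp only [kbOK, Bool.and_eq_true, decide_eq_true_eq] at hok
  obtain ⟨⟨⟨⟨⟨⟨⟨⟨⟨⟨⟨⟨⟨⟨⟨⟨⟨⟨⟨⟨⟨⟨⟨hm, hd0⟩, hd1⟩, hρ⟩, hρ2⟩, hρm⟩, hκ⟩, hκ1⟩, hκ2⟩, ho⟩, ho2⟩, hT0⟩,
    hT⟩, hτ0⟩, hτ⟩, hLe⟩, hQ0⟩, hQ⟩, hk⟩, ht⟩, hs⟩, hK⟩, hR⟩, hrd⟩ := hok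
  have hmR : (3 : ℝ) ≤ m := by exact_mod_cast hm
  have hm0 : (0 : ℝ) < m := by linarith
  have hd0R : (0 : ℝ) ≤ c.f.d := by exact_mod_cast hd0
  have hd1R : (c.f.d : ℝ) < 1 := by exact_mod_cast hd1
  have hρR : (0 : ℝ) < c.ρ := by exact_mod_cast hρ
  have hρ2R : 1 + ((m : ℝ) + 2) * ((c.f.d : ℝ) / (1 - c.f.d)) ≤ (c.ρ : ℝ) ^ 2 := by
    exact_mod_cast hρ2
  have hρmR : (c.ρ : ℝ) ^ 2 ≤ ((m : ℝ) + 2) / 2 := by exact_mod_cast hρm
  have hκR : (0 : ℝ) ≤ c.κ := by exact_mod_cast hκ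
  have hκ1R : 9 / 8 * (c.ρ : ℝ) ^ 2 ≤ c.κ * (((m : ℝ) + 2) / 2) := by
    have := (Rat.cast_le (K := ℝ)).2 hκ1
    push_cast at this
    exact this
  have hκ2R : 9 / 4 * (c.ρ : ℝ) ^ 2 ≤ c.κ * (((m : ℝ) + 2) / 2 + (c.ρ : ℝ) ^ 2) := by
    have := (Rat.cast_le (K := ℝ)).2 hκ2
    push_cast at this
    exact this
  have hoR : (0 : ℝ) ≤ c.om := by exact_mod_cast ho
  have ho2R : ((m : ℝ) + 2) ^ 2 * (((c.f.d : ℝ) ^ 2 + 2 / ((m : ℝ) + 1) * c.f.h)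
      / (1 - c.f.d) ^ 2) ≤ (c.om : ℝ) ^ 2 := by
    have := (Rat.cast_le (K := ℝ)).2 ho2
    push_cast at this
    exact this
  have hT0R : (0 : ℝ) ≤ c.T := by exact_mod_cast hT0
  have hTR : (m : ℝ) + 2 + c.f.d * c.om ≤ (c.T : ℝ) ^ 2 := by exact_mod_cast hT
  have hτ0R : (0 : ℝ) ≤ c.τ := by exact_mod_cast hτ0
  have hτR : 2 * ((c.f.d : ℝ) + c.om) * c.T ≤ ((m : ℝ) + 4) * (((m : ℝ) + 1) * c.τ) := by
    exact_mod_cast hτ
  have hLeR : (c.f.L : ℝ) ≤ 1 - 2 * m / ((m + 1) * (m + 4)) - 4 * (c.ρ : ℝ) ^ 2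
      / ((m + 1) * (m + 4)) - 2 * Ew c.f.d c.f.h * (m + 2 + (c.ρ : ℝ) ^ 2) / (m + 1)
      - c.ρ * c.τ := by
    rw [← Ew_cast]
    exact_mod_cast hLe
  have hQ0R : (0 : ℝ) ≤ c.Q := by exact_mod_cast hQ0
  have hQR : 16 / 7 * (((c.f.d : ℝ) ^ 2 + 2 / ((m : ℝ) + 1) * c.f.h) / (1 - c.f.d) ^ 2)
      + (c.f.h : ℝ) ^ 2 ≤ (c.Q : ℝ) ^ 2 := by
    have := (Rat.cast_le (K := ℝ)).2 hQ
    push_cast at this
    exact this
  have htR : (0 : ℝ) < c.t := by exact_mod_cast ht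
  have hsR : (0 : ℝ) < c.s := by exact_mod_cast hs
  have hKR : c.Q / (2 * c.s) + (1 / 2 + (c.ρ : ℝ) ^ 2 / (m + 2) + c.κ) * c.rb
      + c.ρ * (c.t * (1 - 1 / (2 * c.k))) ≤ c.f.K := by
    have := (Rat.cast_le (K := ℝ)).2 hK
    push_cast at this
    exact this
  have hRR : c.Q * (c.s / 2) + (1 / 2 + (c.ρ : ℝ) ^ 2 / (m + 2) + c.κ) * c.r0
      + c.ρ * (c.t / (2 * c.k) / c.t ^ (2 * c.k) * (momQ m c.k : ℚ) * (1 + c.ρ) ^ 2)
      ≤ c.f.R := by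
    have := (Rat.cast_le (K := ℝ)).2 hR
    push_cast at this
    exact this
  have hH0 : 0 ≤ hh μ (diagonal j) x N := h.hh_nonneg _
  have hh0 : (0 : ℝ) ≤ c.f.h := hH0.trans hh'
  have h1d : (0 : ℝ) < 1 - c.f.d := by linarith
  have hf0 : 0 ≤ fro (De μ x N) := fro_nonneg _
  have hfb : fro (De μ x N) ≤ (c.f.d : ℝ) ^ 2 := by
    rw [← Real.sq_sqrt hf0]
    exact pow_le_pow_left₀ (Real.sqrt_nonneg _) hd 2
  have hj := fun b => abs_j_le h hm0.le hL hd0R hd1R hfb hρR.le hρ2R b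
  have hw : ∑ a, (j a ^ 2 - 1) ^ 2 ≤ (c.om : ℝ) ^ 2 := by
    refine (w_sq h hm0.le hL hd0R hd1R hfb).trans (le_trans ?_ ho2R)
    gcongr
  have hq : ∫ ω, qj j x ω ^ 2 ∂μ ≤ (c.Q : ℝ) ^ 2 := by
    refine (Eq2' h hmR hL hd0R hd1R hfb).trans (le_trans ?_ hQR)
    gcongr
  have hcub := cubic_le h hm0 hL hd0R hfb hoR hw hT0R hTR hτR
  have hE0 : 0 ≤ Ew c.f.d (hh μ (diagonal j) x N) := Ew_nonneg hd0R hd1R hH0
  have hE := Ew_mono hd0R hd1R hH0 hh'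
  have hE1 : 0 ≤ Ew c.f.d c.f.h := hE0.trans hE
  have hL8 : ∀ a, (c.f.L : ℝ) ≤ L8 m j a := by
    intro a
    refine le_trans ?_ (L8_ge h hm0 hL hd0R hd1R hfb hcub a)
    have j1 : j a ^ 2 ≤ (c.ρ : ℝ) ^ 2 := by
      rw [← sq_abs (j a)]
      exact pow_le_pow_left₀ (abs_nonneg _) (hj a) 2
    have j2 : 4 * j a ^ 2 / (((m : ℝ) + 1) * (m + 4)) ≤ 4 * (c.ρ : ℝ) ^ 2
        / ((m + 1) * (m + 4)) := by gcongr
    have j3 : 2 * Ew c.f.d (hh μ (diagonal j) x N) * ((m : ℝ) + 2 + j a ^ 2) / (m + 1)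
        ≤ 2 * Ew c.f.d c.f.h * (m + 2 + (c.ρ : ℝ) ^ 2) / (m + 1) := by gcongr
    have j4 : |j a| * (c.τ : ℝ) ≤ c.ρ * c.τ := mul_le_mul_of_nonneg_right (hj a) hτ0R
    linarith
  have hM0 : (0 : ℝ) ≤ (momQ m c.k : ℚ) := by
    have : 0 ≤ momQ m c.k := momQ_nonneg (by linarith) _
    exact_mod_cast this
  have hst := sqrt_le_tan hH0 hsR
  have k0 := mul_le_mul_of_nonneg_left hst hQ0R
  have hrad1 : ∫ ω, rr j x ω * sz j x N ω ∂μ ≤ c.rb * hh μ (diagonal j) x N + c.r0 := by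
    unfold radOK at hrd
    cases hr : c.r with
    | none =>
      rw [hr] at hrd
      simp only [Bool.and_eq_true, decide_eq_true_eq] at hrd
      obtain ⟨r1, r2⟩ := hrd
      have r1R := (Rat.cast_le (K := ℝ)).2 r1
      have r2R := (Rat.cast_le (K := ℝ)).2 r2
      push_cast at r1R r2R
      have r3 := rs_le h j hQ0R hq
      have r4 := mul_le_mul_of_nonneg_right r1R hH0
      have e1 : (1 + (c.Q : ℝ) / (2 * c.s)) * hh μ (diagonal j) x N + c.Q * (c.s / 2)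
          = hh μ (diagonal j) x N
            + c.Q * (hh μ (diagonal j) x N / (2 * c.s) + c.s / 2) := by ring
      linarith
    | some r =>
      rw [hr] at hrd
      simp only [Bool.and_eq_true, decide_eq_true_eq] at hrd
      obtain ⟨⟨r1, r2⟩, r3⟩ := hrd
      have r2R : (r.R : ℝ) ≤ c.rb := by exact_mod_cast r2
      have r3R : (r.eps : ℝ) ≤ c.r0 := by exact_mod_cast r3
      have r4 := hrad _ _ _ r r1 (by
        push_cast
        rw [div_mul_cancel₀ _ (by positivity)]) hfb hh'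
      have r5 := mul_le_mul_of_nonneg_right r2R hH0
      linarith
  have key := el_kb2 h hmR hL8 hρR hρmR hκR hκ1R hκ2R hj hQ0R hq hk htR hM0 hM hrad1
  have k2 := mul_le_mul_of_nonneg_right hKR hH0
  refine key.trans ?_
  have e2 : (1 / 2 + (c.ρ : ℝ) ^ 2 / (m + 2) + c.κ) * (c.rb * hh μ (diagonal j) x N + c.r0)
      = (1 / 2 + (c.ρ : ℝ) ^ 2 / (m + 2) + c.κ) * c.rb * hh μ (diagonal j) x N
        + (1 / 2 + (c.ρ : ℝ) ^ 2 / (m + 2) + c.κ) * c.r0 := by ring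
  have e3 : (c.Q : ℝ) * (hh μ (diagonal j) x N / (2 * c.s) + c.s / 2)
      = c.Q / (2 * c.s) * hh μ (diagonal j) x N + c.Q * (c.s / 2) := by ring
  rw [e2]
  rw [e3] at k0
  linarith

/-- the list of boxes -/
def kbAll (m : ℚ) : List KbT → Bool
  | [] => true
  | c :: l => kbOK m c && kbAll m l

/-- the affine form of a bound of `H728.e7_sound` -/
def toT (f : ElQ) : ElT := ⟨f.d, 0, f.h, f.K, f.L, 0⟩

theorem kbAll_sound {m : ℚ} (l : List KbT) (hok : kbAll m l = true)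
    (h : T0Data μ (m : ℝ) x N) (hL : LSq μ (diagonal j) x N) (hrad : RadHyp μ m x N j)
    (hM : ∀ (k : ℕ) (v : ι → ℝ), ∑ a, v a ^ 2 = 1 →
      ∫ ω, (∑ a, v a * x a ω) ^ (2 * k) ∂μ ≤ (momQ m k : ℚ)) :
    ∀ f ∈ l.map KbT.f, √(fro (De μ x N)) ≤ f.d → (f.ha : ℝ) ≤ hh μ (diagonal j) x N →
      hh μ (diagonal j) x N ≤ f.h → f.L * √(uu μ N) ≤ f.K * hh μ (diagonal j) x N + f.R := by
  induction l with
  | nil => intro f hf; simp at hf
  | cons c l ih =>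
    simp only [kbAll, Bool.and_eq_true] at hok
    intro f hf
    simp only [List.map_cons, List.mem_cons] at hf
    rcases hf with hf | hf
    · subst hf
      intro hd _ hh'
      exact kb_sound hok.1 h hL hrad (hM c.k) hd hh'
    · exact ih hok.2 f hf

/-- **The two kinds of bounds together**, in the form used by the near checker. -/
theorem elAll_sound {m : ℚ} (l : List (ElQ × ℚ × ℚ)) (l' : List KbT)
    (hok : e7All m l = true) (hok' : kbAll m l' = true)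
    (h : T0Data μ (m : ℝ) x N) (hL : LSq μ (diagonal j) x N) (hrad : RadHyp μ m x N j)
    (hM : ∀ (k : ℕ) (v : ι → ℝ), ∑ a, v a ^ 2 = 1 →
      ∫ ω, (∑ a, v a * x a ω) ^ (2 * k) ∂μ ≤ (momQ m k : ℚ)) :
    ∀ f ∈ l.map (fun c => toT c.1) ++ l'.map KbT.f, √(fro (De μ x N)) ≤ f.d →
      (f.ha : ℝ) ≤ hh μ (diagonal j) x N → hh μ (diagonal j) x N ≤ f.h →
      f.L * √(uu μ N) ≤ f.K * hh μ (diagonal j) x N + f.R := by
  intro f hf
  rcases List.mem_append.1 hf with hf | hf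
  · obtain ⟨c, hc, rfl⟩ := List.mem_map.1 hf
    intro hd _ hh'
    have := e7All_sound l hok h hL c.1 (List.mem_map_of_mem hc) hd hh'
    simpa [toT] using this
  · exact kbAll_sound l' hok' h hL hrad hM f hf

end

end Vale.Agent.P224.R2.H928
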